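import Vale.Agent.Lib.P111.Defs

namespace Vale.Agent.Lib.P111

open scoped ENNReal

/-- Minkowski's inequality for a countable sum of nonnegative vectors of `ℝ^s` in the
`ℓ_p` norm, `p ≥ 1`. -/
theorem minkowski_tsum {s : ℕ} {p : ℝ} (hp : 1 ≤ p) (a : Fin s → ℕ → ℝ)
    (ha : ∀ i n, 0 ≤ a i n) (hs : ∀ i, Summable (a i)) :
    Summable (fun n => (∑ i, (a i n) ^ p) ^ (1 / p)) ∧
    (∑ i, (∑' n, a i n) ^ p) ^ (1 / p) ≤ ∑' n, (∑ i, (a i n) ^ p) ^ (1 / p) := by
  set P : ℝ≥0∞ := ENNReal.ofReal p with hP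
  have hp0 : 0 < p := by linarith
  have hPreal : P.toReal = p := ENNReal.toReal_ofReal hp0.le
  have : Fact (1 ≤ P) := ⟨by rw [hP]; exact ENNReal.one_le_ofReal.2 hp⟩
  have hPpos : 0 < P.toReal := by rw [hPreal]; exact hp0
  let v : ℕ → PiLp P (fun _ : Fin s => ℝ) := fun n => WithLp.toLp P (fun i => a i n)
  have hnorm : ∀ n, ‖v n‖ = (∑ i, (a i n) ^ p) ^ (1 / p) := by
    intro n
    rw [PiLp.norm_eq_sum hPpos, hPreal]
    congr 2
    funext i
    simp only [v, Real.norm_eq_abs, abs_of_nonneg (ha i n)]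
  have hsum : HasSum v (WithLp.toLp P (fun i => ∑' n, a i n)) := by
    have h1 : HasSum (fun n => (fun i => a i n : Fin s → ℝ)) (fun i => ∑' n, a i n) :=
      Pi.hasSum.2 (fun i => (hs i).hasSum)
    exact (PiLp.continuousLinearEquiv P ℝ (fun _ : Fin s => ℝ)).symm.hasSum.2 h1 |> fun h => by
      simpa using h
  have hsn : Summable (fun n => ‖v n‖) := summable_norm_iff.2 hsum.summable
  refine ⟨by simpa [hnorm] using hsn, ?_⟩
  have h2 := norm_tsum_le_tsum_norm hsn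
  rw [hsum.tsum_eq, PiLp.norm_eq_sum hPpos, hPreal] at h2
  have h3 : (∑ i, ‖(WithLp.toLp P (fun i => ∑' n, a i n) :
      PiLp P (fun _ : Fin s => ℝ)).ofLp i‖ ^ p) = ∑ i, (∑' n, a i n) ^ p := by
    apply Finset.sum_congr rfl
    intro i _
    simp only [Real.norm_eq_abs]
    rw [abs_of_nonneg (tsum_nonneg (ha i))]
  rw [h3] at h2
  simpa [hnorm] using h2

lemma radSq_nonneg {Y : Type*} [NormedAddCommGroup Y] [NormedSpace ℝ Y] {s : ℕ}
    (y : Fin s → Y) : 0 ≤ radSq y := by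
  unfold radSq
  positivity

/-- If the square of the norm of `Z` is the sum of the squares of the norms of the
components `π n z`, and all component spaces have cotype constant at most `C`, then so has `Z`
(for `q ≥ 2`). -/
theorem cotype_of_l2_decomp {Z : Type*} [NormedAddCommGroup Z] [NormedSpace ℝ Z]
    {Y : ℕ → Type*} [∀ n, NormedAddCommGroup (Y n)] [∀ n, NormedSpace ℝ (Y n)]
    (π : ∀ n, Z →ₗ[ℝ] Y n) (hπ : ∀ z, HasSum (fun n => ‖π n z‖ ^ 2) (‖z‖ ^ 2))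
    {q C : ℝ} (hq : 2 ≤ q) (hC : 0 ≤ C) (hY : ∀ n, CotypeLe (Y n) q C) : CotypeLe Z q C := by
  intro s y
  have hq0 : 0 < q := by linarith
  set p : ℝ := q / 2 with hp
  have hp1 : 1 ≤ p := by rw [hp]; linarith
  have hp0 : 0 < p := by linarith
  -- the matrix of squared norms of components
  set a : Fin s → ℕ → ℝ := fun i n => ‖π n (y i)‖ ^ 2 with ha
  have ha0 : ∀ i n, 0 ≤ a i n := fun i n => by positivity
  have has : ∀ i, HasSum (a i) (‖y i‖ ^ 2) := fun i => hπ (y i)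
  obtain ⟨hsumm, hmink⟩ := minkowski_tsum hp1 a ha0 (fun i => (has i).summable)
  -- rewriting powers
  have hpow : ∀ x : ℝ, 0 ≤ x → (x ^ 2) ^ p = x ^ q := by
    intro x hx
    rw [← Real.rpow_natCast x 2, ← Real.rpow_mul hx, hp]
    congr 1
    push_cast
    ring
  have hL : (∑ i, (∑' n, a i n) ^ p) = ∑ i, ‖y i‖ ^ q := by
    apply Finset.sum_congr rfl
    intro i _
    rw [(has i).tsum_eq, hpow _ (norm_nonneg _)]
  have hR : ∀ n, (∑ i, (a i n) ^ p) = ∑ i, ‖π n (y i)‖ ^ q := by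
    intro n
    apply Finset.sum_congr rfl
    intro i _
    rw [ha, hpow _ (norm_nonneg _)]
  rw [hL] at hmink
  simp only [hR] at hmink hsumm
  -- each term is controlled by the cotype of the component
  have hterm : ∀ n, (∑ i, ‖π n (y i)‖ ^ q) ^ (1 / p) ≤ C ^ 2 * radSq (fun i => π n (y i)) := by
    intro n
    have h1 := hY n s (fun i => π n (y i))
    have hnn : 0 ≤ ∑ i, ‖π n (y i)‖ ^ q :=
      Finset.sum_nonneg (fun i _ => Real.rpow_nonneg (norm_nonneg _) _)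
    have h2 : (∑ i, ‖π n (y i)‖ ^ q) ^ (1 / p) = ((∑ i, ‖π n (y i)‖ ^ q) ^ (1 / q)) ^ 2 := by
      rw [← Real.rpow_natCast _ 2, ← Real.rpow_mul hnn, hp]
      congr 1
      push_cast
      field_simp
    rw [h2]
    have h3 : 0 ≤ (∑ i, ‖π n (y i)‖ ^ q) ^ (1 / q) := Real.rpow_nonneg hnn _
    calc ((∑ i, ‖π n (y i)‖ ^ q) ^ (1 / q)) ^ 2
        ≤ (C * Real.sqrt (radSq (fun i => π n (y i)))) ^ 2 := by
          apply pow_le_pow_left₀ h3 h1
      _ = C ^ 2 * radSq (fun i => π n (y i)) := by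
          rw [mul_pow, Real.sq_sqrt (radSq_nonneg _)]
  -- the Rademacher averages add up
  have hrad : HasSum (fun n => radSq (fun i => π n (y i))) (radSq y) := by
    unfold radSq
    apply HasSum.div_const
    apply hasSum_sum
    intro ε _
    have := hπ (∑ i, sgn (ε i) • y i)
    simpa [map_sum, map_smul] using this
  have hsum2 : (∑ i, ‖y i‖ ^ q) ^ (1 / p) ≤ C ^ 2 * radSq y := by
    calc (∑ i, ‖y i‖ ^ q) ^ (1 / p)
        ≤ ∑' n, (∑ i, ‖π n (y i)‖ ^ q) ^ (1 / p) := hmink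
      _ ≤ ∑' n, C ^ 2 * radSq (fun i => π n (y i)) :=
          hsumm.tsum_le_tsum hterm (hrad.summable.mul_left _)
      _ = C ^ 2 * radSq y := by rw [tsum_mul_left, hrad.tsum_eq]
  have hnn : 0 ≤ ∑ i, ‖y i‖ ^ q :=
    Finset.sum_nonneg (fun i _ => Real.rpow_nonneg (norm_nonneg _) _)
  have h2 : (∑ i, ‖y i‖ ^ q) ^ (1 / p) = ((∑ i, ‖y i‖ ^ q) ^ (1 / q)) ^ 2 := by
    rw [← Real.rpow_natCast _ 2, ← Real.rpow_mul hnn, hp]
    congr 1
    push_cast
    field_simp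
  rw [h2] at hsum2
  have h3 : 0 ≤ (∑ i, ‖y i‖ ^ q) ^ (1 / q) := Real.rpow_nonneg hnn _
  have h4 : C ^ 2 * radSq y = (C * Real.sqrt (radSq y)) ^ 2 := by
    rw [mul_pow, Real.sq_sqrt (radSq_nonneg _)]
  rw [h4] at hsum2
  exact le_of_sq_le_sq hsum2 (mul_nonneg hC (Real.sqrt_nonneg _)) |> fun h => by
    simpa [abs_of_nonneg h3] using h

end Vale.Agent.Lib.P111
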