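import Vale.Agent.Lib.P111.L2Sum

namespace Vale.Agent.Lib.P111

open scoped ENNReal
open Filter Topology

universe u

variable (E : ℕ → Type u) [∀ n, NormedAddCommGroup (E n)] [∀ n, NormedSpace ℝ (E n)]

/-- truncation to the first `N` summands, factored through the finite product -/
noncomputable def truncA (N : ℕ) : (∀ n : Fin N, E n) →L[ℝ] lp E 2 :=
  ∑ n : Fin N, (lp.singleContinuousLinearMap ℝ E 2 (n : ℕ)).comp
    (ContinuousLinearMap.proj (R := ℝ) (φ := fun n : Fin N => E n) n)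

noncomputable def truncB (N : ℕ) : lp E 2 →L[ℝ] (∀ n : Fin N, E n) :=
  ContinuousLinearMap.pi (fun n : Fin N => lp.evalCLM ℝ E 2 (n : ℕ))

noncomputable def trunc (N : ℕ) : lp E 2 →L[ℝ] lp E 2 := (truncA E N).comp (truncB E N)

lemma trunc_apply (N : ℕ) (x : lp E 2) :
    trunc E N x = ∑ n ∈ Finset.range N, lp.single 2 n (x n) := by
  unfold trunc truncA truncB
  rw [ContinuousLinearMap.comp_apply, _root_.sum_apply,
    ← Fin.sum_univ_eq_sum_range (fun n => lp.single 2 n (x n)) N]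
  rfl

lemma norm_trunc_apply_le (N : ℕ) (x : lp E 2) : ‖trunc E N x‖ ≤ ‖x‖ := by
  have h1 : ‖trunc E N x‖ ^ 2 = ∑ n ∈ Finset.range N, ‖x n‖ ^ 2 := by
    rw [trunc_apply, norm_sq_sum_single]
  have h2 : ∑ n ∈ Finset.range N, ‖x n‖ ^ 2 ≤ ‖x‖ ^ 2 :=
    sum_le_hasSum _ (fun n _ => by positivity) (lp_hasSum_sq E x)
  have h3 : ‖trunc E N x‖ ^ 2 ≤ ‖x‖ ^ 2 := h1 ▸ h2
  exact le_of_sq_le_sq h3 (norm_nonneg _) |> fun h => by
    simpa [abs_of_nonneg (norm_nonneg (trunc E N x))] using h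

lemma norm_trunc_le (N : ℕ) : ‖trunc E N‖ ≤ 1 :=
  ContinuousLinearMap.opNorm_le_bound _ zero_le_one (fun x => by
    simpa using norm_trunc_apply_le E N x)

lemma tendsto_trunc (x : lp E 2) : Tendsto (fun N => trunc E N x) atTop (𝓝 x) := by
  have h := (lp.hasSum_single (by norm_num) x).tendsto_sum_nat
  simpa [trunc_apply] using h

lemma finrank_trunc [∀ n, FiniteDimensional ℝ (E n)] (N : ℕ) :
    FiniteDimensional ℝ (LinearMap.range (trunc E N : lp E 2 →ₗ[ℝ] lp E 2)) := by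
  have h1 : LinearMap.range (trunc E N : lp E 2 →ₗ[ℝ] lp E 2)
      ≤ LinearMap.range (truncA E N : (∀ n : Fin N, E n) →ₗ[ℝ] lp E 2) := by
    rintro y ⟨x, rfl⟩
    exact ⟨truncB E N x, rfl⟩
  have h2 : FiniteDimensional ℝ
      (LinearMap.range (truncA E N : (∀ n : Fin N, E n) →ₗ[ℝ] lp E 2)) :=
    LinearMap.finiteDimensional_range _
  exact Submodule.finiteDimensional_of_le h1

/-- the `ℓ_2`-sum of finite-dimensional spaces has the bounded approximation property -/
theorem hasBAP_lp [∀ n, FiniteDimensional ℝ (E n)] : HasBAP (lp E 2) := by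
  refine ⟨1, ?_⟩
  intro M hM δ hδ
  obtain ⟨t, -, htfin, hcover⟩ := hM.finite_cover_balls (e := δ / 3) (by linarith)
  have hev : ∀ᶠ N in atTop, ∀ x ∈ t, ‖trunc E N x - x‖ < δ / 3 := by
    rw [Filter.eventually_all_finite htfin]
    intro x _
    have h := tendsto_trunc E x
    rw [Metric.tendsto_nhds] at h
    have h2 := h (δ / 3) (by linarith)
    simpa [dist_eq_norm] using h2
  obtain ⟨N, hN⟩ := hev.exists
  refine ⟨trunc E N, finrank_trunc E N, norm_trunc_le E N, ?_⟩
  intro x hx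
  have hx' := hcover hx
  simp only [Set.mem_iUnion, Metric.mem_ball, exists_prop] at hx'
  obtain ⟨z, hzt, hxz⟩ := hx'
  rw [dist_eq_norm] at hxz
  have h1 : trunc E N x - x = trunc E N (x - z) + (trunc E N z - z) + (z - x) := by
    rw [map_sub]
    abel
  have h2 : ‖trunc E N (x - z)‖ ≤ ‖x - z‖ := norm_trunc_apply_le E N (x - z)
  have h3 : ‖z - x‖ = ‖x - z‖ := norm_sub_rev z x
  calc ‖trunc E N x - x‖ = ‖trunc E N (x - z) + (trunc E N z - z) + (z - x)‖ := by rw [h1]
    _ ≤ ‖trunc E N (x - z)‖ + ‖trunc E N z - z‖ + ‖z - x‖ := norm_add₃_le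
    _ < δ := by
        have := hN z hzt
        linarith

/-- `K`-convexity constants pass to isometrically embedded subspaces -/
theorem kconvexLe_of_isometry {X F : Type*} [NormedAddCommGroup X] [NormedSpace ℝ X]
    [NormedAddCommGroup F] [NormedSpace ℝ F] (ι : F →ₗ[ℝ] X) (hι : ∀ v, ‖ι v‖ = ‖v‖)
    {K : ℝ} (hK : KConvexLe X K) : KConvexLe F K := by
  intro s f
  have h := hK s (fun ε => ι (f ε))
  have h1 : radProj (fun ε => ι (f ε)) = fun ε => ι (radProj f ε) := by
    funext ε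
    simp only [radProj, map_sum, map_smul]
  have h2 : ∀ g : (Fin s → Bool) → F, l2Sq (fun ε => ι (g ε)) = l2Sq g := by
    intro g
    simp only [l2Sq, hι]
  rw [h1, h2, h2] at h
  exact h

/-- the `ℓ_2`-sum is not `K`-convex if the `K`-convexity constants of the summands are
unbounded -/
theorem not_kconvex_lp (hK : ∀ K : ℝ, ∃ n, ¬ KConvexLe (E n) K) :
    ¬ ∃ K : ℝ, KConvexLe (lp E 2) K := by
  rintro ⟨K, hKX⟩
  obtain ⟨n, hn⟩ := hK K
  apply hn
  exact kconvexLe_of_isometry (lp.lsingle (𝕜 := ℝ) 2 n)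
    (fun v => lp.norm_single (by norm_num) n v) hKX

lemma CotypeLe.mono {Y : Type*} [NormedAddCommGroup Y] [NormedSpace ℝ Y] {q C C' : ℝ}
    (h : CotypeLe Y q C) (hC : C ≤ C') : CotypeLe Y q C' := by
  intro s y
  exact (h s y).trans (mul_le_mul_of_nonneg_right hC (Real.sqrt_nonneg _))

lemma KConvexLe.mono {X : Type*} [NormedAddCommGroup X] [NormedSpace ℝ X] {K K' : ℝ}
    (h : KConvexLe X K) (hK : K ≤ K') : KConvexLe X K' := by
  intro s f
  exact (h s f).trans (mul_le_mul_of_nonneg_right hK (Real.sqrt_nonneg _))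

/-- Counterexample criterion: the `ℓ_2`-sum of finite-dimensional spaces with uniformly bounded
cotype constants (for the spaces and their duals) and unbounded `K`-convexity constants has
the bounded approximation property, finite cotype, a dual of finite cotype, and is not
`K`-convex. -/
theorem l2sum_counterexample [∀ n, FiniteDimensional ℝ (E n)] {q r C : ℝ} (hq : 2 ≤ q)
    (hr : 2 ≤ r) (hE : ∀ n, CotypeLe (E n) q C) (hE' : ∀ n, CotypeLe (StrongDual ℝ (E n)) r C)
    (hK : ∀ K : ℝ, ∃ n, ¬ KConvexLe (E n) K) :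
    HasBAP (lp E 2) ∧ CotypeLe (lp E 2) q (max C 0) ∧
      CotypeLe (StrongDual ℝ (lp E 2)) r (max C 0) ∧ ¬ ∃ K : ℝ, KConvexLe (lp E 2) K :=
  ⟨hasBAP_lp E,
    cotype_lp E hq (le_max_right _ _) (fun n => (hE n).mono (le_max_left _ _)),
    cotype_dual_lp E hr (le_max_right _ _) (fun n => (hE' n).mono (le_max_left _ _)),
    not_kconvex_lp E hK⟩

end Vale.Agent.Lib.P111
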