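import Mathlib

namespace Vale.Agent.Lib.P111

/-- The sign attached to a boolean: `true ↦ 1`, `false ↦ -1`. A vector `ε : Fin s → Bool`
encodes a choice of signs `ε_1, …, ε_s`. -/
def sgn (b : Bool) : ℝ := if b then 1 else -1

/-- `radSq y = E ‖∑ i, ε_i y_i‖²`, the average over all `2 ^ s` choices of signs. -/
noncomputable def radSq {Y : Type*} [NormedAddCommGroup Y] [NormedSpace ℝ Y] {s : ℕ}
    (y : Fin s → Y) : ℝ :=
  (∑ ε : Fin s → Bool, ‖∑ i, sgn (ε i) • y i‖ ^ 2) / 2 ^ s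

/-- `CotypeLe Y q C` says that the cotype-`q` constant of `Y` is at most `C`:
`(∑ i, ‖y_i‖^q)^(1/q) ≤ C * (E ‖∑ i, ε_i y_i‖²)^(1/2)` for all finite families. -/
def CotypeLe (Y : Type*) [NormedAddCommGroup Y] [NormedSpace ℝ Y] (q C : ℝ) : Prop :=
  ∀ (s : ℕ) (y : Fin s → Y), (∑ i, ‖y i‖ ^ q) ^ (1 / q) ≤ C * Real.sqrt (radSq y)

/-- Square of the norm of `f` in `L_2({-1,1}^s; X)` for the uniform probability. -/
noncomputable def l2Sq {X : Type*} [NormedAddCommGroup X] [NormedSpace ℝ X] {s : ℕ}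
    (f : (Fin s → Bool) → X) : ℝ :=
  (∑ ε : Fin s → Bool, ‖f ε‖ ^ 2) / 2 ^ s

/-- The Rademacher projection: `(Rad f)(ε) = ∑ i, ε_i • E_η [η_i • f η]`. -/
noncomputable def radProj {X : Type*} [NormedAddCommGroup X] [NormedSpace ℝ X] {s : ℕ}
    (f : (Fin s → Bool) → X) : (Fin s → Bool) → X :=
  fun ε => ∑ i, sgn (ε i) • (((2 : ℝ) ^ s)⁻¹ • ∑ η : Fin s → Bool, sgn (η i) • f η)

/-- `KConvexLe X K` says that the `K`-convexity constant of `X` is at most `K`: all Rademacher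
projections have norm at most `K` on `L_2({-1,1}^s; X)`. -/
def KConvexLe (X : Type*) [NormedAddCommGroup X] [NormedSpace ℝ X] (K : ℝ) : Prop :=
  ∀ (s : ℕ) (f : (Fin s → Bool) → X),
    Real.sqrt (l2Sq (radProj f)) ≤ K * Real.sqrt (l2Sq f)

/-- The bounded approximation property: there is `lam` such that for every compact set `M`
and every `δ > 0` there is a bounded linear map `S` of finite rank with `‖S‖ ≤ lam` and
`‖S x - x‖ < δ` for all `x ∈ M`. -/
def HasBAP (X : Type*) [NormedAddCommGroup X] [NormedSpace ℝ X] : Prop :=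
  ∃ lam : ℝ, ∀ M : Set X, IsCompact M → ∀ δ : ℝ, 0 < δ →
    ∃ S : X →L[ℝ] X, FiniteDimensional ℝ (LinearMap.range (S : X →ₗ[ℝ] X)) ∧ ‖S‖ ≤ lam ∧
      ∀ x ∈ M, ‖S x - x‖ < δ

end Vale.Agent.Lib.P111
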