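import Vale.Agent.Lib.P111.Counter

namespace Vale.Agent.Lib.P111

open scoped ENNReal

universe u

/-- a space with a negative cotype bound is trivial -/
lemma eq_zero_of_cotypeLe_neg {Y : Type*} [NormedAddCommGroup Y] [NormedSpace ℝ Y] {q C : ℝ}
    (hq : 2 ≤ q) (hC : C < 0) (h : CotypeLe Y q C) (y : Y) : y = 0 := by
  have h1 := h 1 (fun _ => y)
  have hq0 : q ≠ 0 := by linarith
  have h2 : (∑ _i : Fin 1, ‖y‖ ^ q) ^ (1 / q) = ‖y‖ := by
    rw [Fin.sum_univ_one, one_div, Real.rpow_rpow_inv (norm_nonneg _) hq0]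
  rw [h2] at h1
  have h3 : C * Real.sqrt (radSq (fun _ : Fin 1 => y)) ≤ 0 :=
    mul_nonpos_of_nonpos_of_nonneg hC.le (Real.sqrt_nonneg _)
  have h4 : ‖y‖ ≤ 0 := h1.trans h3
  exact norm_le_zero_iff.1 h4

lemma kconvexLe_of_forall_eq_zero {X : Type*} [NormedAddCommGroup X] [NormedSpace ℝ X]
    (h : ∀ x : X, x = 0) (K : ℝ) : KConvexLe X K := by
  intro s f
  have h1 : ∀ g : (Fin s → Bool) → X, l2Sq g = 0 := by
    intro g
    simp [l2Sq, h]
  rw [h1, h1]
  simp

/-- the counterexample criterion with the same constant `C` -/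
theorem l2sum_counterexample' (E : ℕ → Type u) [∀ n, NormedAddCommGroup (E n)]
    [∀ n, NormedSpace ℝ (E n)] [∀ n, FiniteDimensional ℝ (E n)] {q r C : ℝ} (hq : 2 ≤ q)
    (hr : 2 ≤ r) (hE : ∀ n, CotypeLe (E n) q C) (hE' : ∀ n, CotypeLe (StrongDual ℝ (E n)) r C)
    (hK : ∀ K : ℝ, ∃ n, ¬ KConvexLe (E n) K) :
    HasBAP (lp E 2) ∧ CotypeLe (lp E 2) q C ∧
      CotypeLe (StrongDual ℝ (lp E 2)) r C ∧ ¬ ∃ K : ℝ, KConvexLe (lp E 2) K := by
  by_cases hC : 0 ≤ C
  · have h := l2sum_counterexample E hq hr hE hE' hK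
    rwa [max_eq_left hC] at h
  · exfalso
    obtain ⟨n, hn⟩ := hK 0
    exact hn (kconvexLe_of_forall_eq_zero
      (fun x => eq_zero_of_cotypeLe_neg hq (not_le.1 hC) (hE n) x) 0)

/-- Uniformity principle: if every Banach space with the bounded approximation property such
that the space and its dual have finite cotype is `K`-convex, then the `K`-convexity constant
of a finite-dimensional space is bounded in terms of cotype constants of the space and of
its dual. -/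
theorem uniformity
    (hconj : ∀ (X : Type u) [NormedAddCommGroup X] [NormedSpace ℝ X] [CompleteSpace X],
      HasBAP X → (∃ q C : ℝ, 2 ≤ q ∧ CotypeLe X q C) →
      (∃ r C : ℝ, 2 ≤ r ∧ CotypeLe (StrongDual ℝ X) r C) → ∃ K : ℝ, KConvexLe X K) :
    ∀ q r C : ℝ, 2 ≤ q → 2 ≤ r → ∃ K : ℝ,
      ∀ (F : Type u) [NormedAddCommGroup F] [NormedSpace ℝ F] [FiniteDimensional ℝ F],
        CotypeLe F q C → CotypeLe (StrongDual ℝ F) r C → KConvexLe F K := by
  intro q r C hq hr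
  by_contra hcon
  push Not at hcon
  have h' := fun n : ℕ => hcon (n : ℝ)
  choose F i1 i2 i3 hF1 hF2 hF3 using h'
  have i4 : ∀ n, CompleteSpace (F n) := fun n => FiniteDimensional.complete ℝ (F n)
  have hK : ∀ K : ℝ, ∃ n, ¬ KConvexLe (F n) K := by
    intro K
    obtain ⟨n, hn⟩ := exists_nat_ge K
    exact ⟨n, fun h => hF3 n (h.mono hn)⟩
  obtain ⟨hbap, hc1, hc2, hnot⟩ := l2sum_counterexample' F hq hr hF1 hF2 hK
  exact hnot (hconj (lp F 2) hbap ⟨q, C, hq, hc1⟩ ⟨r, C, hr, hc2⟩)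

end Vale.Agent.Lib.P111
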