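import Vale.Agent.Lib.P111.Cotype

namespace Vale.Agent.Lib.P111

open scoped ENNReal
open Filter Topology

universe u

variable (E : ℕ → Type u) [∀ n, NormedAddCommGroup (E n)] [∀ n, NormedSpace ℝ (E n)]

lemma two_toReal_pos : 0 < (2 : ℝ≥0∞).toReal := by norm_num

omit [∀ n, NormedSpace ℝ (E n)] in
/-- squared norm in the `ℓ_2`-sum -/
lemma lp_hasSum_sq (x : lp E 2) : HasSum (fun n => ‖x n‖ ^ 2) (‖x‖ ^ 2) := by
  have h := lp.hasSum_norm two_toReal_pos x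
  simpa using h

/-- the `ℓ_2`-sum of spaces with cotype constant at most `C` has cotype constant at most `C` -/
theorem cotype_lp {q C : ℝ} (hq : 2 ≤ q) (hC : 0 ≤ C) (hE : ∀ n, CotypeLe (E n) q C) :
    CotypeLe (lp E 2) q C :=
  cotype_of_l2_decomp (fun n => lp.evalₗ (𝕜 := ℝ) E 2 n)
    (fun x => by simpa using lp_hasSum_sq E x) hq hC hE

/-- restriction of a functional on the `ℓ_2`-sum to the `n`-th summand -/
noncomputable def restr (n : ℕ) : StrongDual ℝ (lp E 2) →ₗ[ℝ] StrongDual ℝ (E n) where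
  toFun φ := φ.comp (lp.singleContinuousLinearMap ℝ E 2 n)
  map_add' φ ψ := by ext; simp
  map_smul' c φ := by ext; simp

lemma restr_apply (n : ℕ) (φ : StrongDual ℝ (lp E 2)) (w : E n) :
    restr E n φ w = φ (lp.single 2 n w) := rfl

omit [∀ n, NormedSpace ℝ (E n)] in
lemma norm_sq_sum_single (w : ∀ n, E n) (F : Finset ℕ) :
    ‖∑ n ∈ F, lp.single 2 n (w n)‖ ^ 2 = ∑ n ∈ F, ‖w n‖ ^ 2 := by
  have h := lp.norm_sum_single (E := E) two_toReal_pos w F
  simpa using h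

/-- finite sums of squared norms of restrictions are at most the squared norm -/
lemma sum_restr_sq_le (φ : StrongDual ℝ (lp E 2)) (F : Finset ℕ) :
    ∑ n ∈ F, ‖restr E n φ‖ ^ 2 ≤ ‖φ‖ ^ 2 := by
  set A : ℝ := ∑ n ∈ F, ‖restr E n φ‖ ^ 2 with hA
  have hA0 : 0 ≤ A := Finset.sum_nonneg (fun n _ => by positivity)
  -- key estimate for every θ < 1
  have key : ∀ θ : ℝ, 0 < θ → θ < 1 → θ * A ≤ ‖φ‖ * Real.sqrt A := by
    intro θ hθ0 hθ1
    have hex : ∀ n, ∃ w : E n, ‖w‖ ≤ ‖restr E n φ‖ ∧ θ * ‖restr E n φ‖ ^ 2 ≤ restr E n φ w := by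
      intro n
      rcases eq_or_lt_of_le (norm_nonneg (restr E n φ)) with h0 | hpos
      · refine ⟨0, ?_, ?_⟩
        · simp
        · rw [← h0]; simp
      · have hlt : θ * ‖restr E n φ‖ < ‖restr E n φ‖ := by nlinarith
        obtain ⟨u, hu1, hu2⟩ := (restr E n φ).exists_lt_apply_of_lt_opNorm hlt
        rw [Real.norm_eq_abs] at hu2
        rcases le_total 0 (restr E n φ u) with hs | hs
        · refine ⟨‖restr E n φ‖ • u, ?_, ?_⟩
          · rw [norm_smul, Real.norm_of_nonneg (norm_nonneg _)]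
            nlinarith [norm_nonneg (restr E n φ), norm_nonneg u]
          · rw [map_smul, smul_eq_mul]
            rw [abs_of_nonneg hs] at hu2
            nlinarith
        · refine ⟨(-‖restr E n φ‖) • u, ?_, ?_⟩
          · rw [norm_smul, norm_neg, Real.norm_of_nonneg (norm_nonneg _)]
            nlinarith [norm_nonneg (restr E n φ), norm_nonneg u]
          · rw [map_smul, smul_eq_mul]
            rw [abs_of_nonpos hs] at hu2
            nlinarith
    choose w hw1 hw2 using hex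
    set x : lp E 2 := ∑ n ∈ F, lp.single 2 n (w n) with hx
    have hφx : φ x = ∑ n ∈ F, restr E n φ (w n) := by
      rw [hx, map_sum]
      rfl
    have hxn : ‖x‖ ^ 2 ≤ A := by
      rw [hx, norm_sq_sum_single]
      apply Finset.sum_le_sum
      intro n _
      exact pow_le_pow_left₀ (norm_nonneg _) (hw1 n) 2
    have hxn' : ‖x‖ ≤ Real.sqrt A := Real.le_sqrt_of_sq_le hxn
    calc θ * A = ∑ n ∈ F, θ * ‖restr E n φ‖ ^ 2 := by rw [hA, Finset.mul_sum]
      _ ≤ ∑ n ∈ F, restr E n φ (w n) := Finset.sum_le_sum (fun n _ => hw2 n)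
      _ = φ x := hφx.symm
      _ ≤ ‖φ x‖ := Real.le_norm_self _
      _ ≤ ‖φ‖ * ‖x‖ := φ.le_opNorm x
      _ ≤ ‖φ‖ * Real.sqrt A := by gcongr
  -- let θ tend to 1
  have h1 : A ≤ ‖φ‖ * Real.sqrt A := by
    by_contra hcon
    push Not at hcon
    have hApos : 0 < A := lt_of_le_of_lt (mul_nonneg (norm_nonneg _) (Real.sqrt_nonneg _)) hcon
    set θ : ℝ := (‖φ‖ * Real.sqrt A / A + 1) / 2 with hθ
    have hr : ‖φ‖ * Real.sqrt A / A < 1 := by rw [div_lt_one hApos]; exact hcon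
    have hr0 : 0 ≤ ‖φ‖ * Real.sqrt A / A := by positivity
    have hθ0 : 0 < θ := by rw [hθ]; linarith
    have hθ1 : θ < 1 := by rw [hθ]; linarith
    have h2 := key θ hθ0 hθ1
    have h3 : θ * A = (‖φ‖ * Real.sqrt A + A) / 2 := by
      rw [hθ]
      field_simp
    rw [h3] at h2
    linarith
  rcases eq_or_lt_of_le hA0 with h0 | hpos
  · rw [← h0]; positivity
  · have hs : 0 < Real.sqrt A := Real.sqrt_pos.2 hpos
    have h2 : Real.sqrt A * Real.sqrt A = A := Real.mul_self_sqrt hA0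
    have h3 : Real.sqrt A ≤ ‖φ‖ := by nlinarith
    calc A = Real.sqrt A * Real.sqrt A := h2.symm
      _ ≤ ‖φ‖ * ‖φ‖ := by gcongr
      _ = ‖φ‖ ^ 2 := by ring

lemma summable_restr_sq (φ : StrongDual ℝ (lp E 2)) :
    Summable (fun n => ‖restr E n φ‖ ^ 2) :=
  summable_of_sum_le (fun n => by positivity) (fun F => sum_restr_sq_le E φ F)

/-- the norm of a functional is at most the `ℓ_2`-norm of its restrictions -/
lemma norm_le_sqrt_tsum_restr (φ : StrongDual ℝ (lp E 2)) :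
    ‖φ‖ ≤ Real.sqrt (∑' n, ‖restr E n φ‖ ^ 2) := by
  apply ContinuousLinearMap.opNorm_le_bound _ (Real.sqrt_nonneg _)
  intro x
  have hx : HasSum (fun n => φ (lp.single 2 n (x n))) (φ x) :=
    (lp.hasSum_single (by norm_num) x).mapL φ
  have hf : Summable (fun n => ‖restr E n φ‖ ^ (2 : ℝ)) := by
    simpa using summable_restr_sq E φ
  have hg : Summable (fun n => ‖x n‖ ^ (2 : ℝ)) := by
    simpa using (lp_hasSum_sq E x).summable
  have hsummul : Summable (fun n => ‖restr E n φ‖ * ‖x n‖) :=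
    Real.summable_mul_of_Lp_Lq_of_nonneg Real.HolderConjugate.two_two
      (fun n => norm_nonneg _) (fun n => norm_nonneg _) hf hg
  have hholder := Real.inner_le_Lp_mul_Lq_tsum_of_nonneg Real.HolderConjugate.two_two
      (fun n => norm_nonneg (restr E n φ)) (fun n => norm_nonneg (x n)) hf hg
  have hbound : ∀ n, ‖φ (lp.single 2 n (x n))‖ ≤ ‖restr E n φ‖ * ‖x n‖ := by
    intro n
    exact (restr E n φ).le_opNorm (x n)
  have hsn : Summable (fun n => ‖φ (lp.single 2 n (x n))‖) :=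
    Summable.of_nonneg_of_le (fun n => norm_nonneg _) hbound hsummul
  have e1 : (∑' n, ‖restr E n φ‖ ^ (2 : ℝ)) ^ (1 / (2 : ℝ))
      = Real.sqrt (∑' n, ‖restr E n φ‖ ^ 2) := by
    rw [Real.sqrt_eq_rpow]
    congr 2
    funext n
    exact Real.rpow_two _
  have e2 : (∑' n, ‖x n‖ ^ (2 : ℝ)) ^ (1 / (2 : ℝ)) = ‖x‖ := by
    have : (∑' n, ‖x n‖ ^ (2 : ℝ)) = ‖x‖ ^ 2 := by
      rw [← (lp_hasSum_sq E x).tsum_eq]
      congr 1
      funext n
      exact Real.rpow_two _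
    rw [this, ← Real.sqrt_eq_rpow, Real.sqrt_sq (norm_nonneg _)]
  calc ‖φ x‖ = ‖∑' n, φ (lp.single 2 n (x n))‖ := by rw [hx.tsum_eq]
    _ ≤ ∑' n, ‖φ (lp.single 2 n (x n))‖ := norm_tsum_le_tsum_norm hsn
    _ ≤ ∑' n, ‖restr E n φ‖ * ‖x n‖ := hsn.tsum_le_tsum hbound hsummul
    _ ≤ (∑' n, ‖restr E n φ‖ ^ (2 : ℝ)) ^ (1 / (2 : ℝ))
          * (∑' n, ‖x n‖ ^ (2 : ℝ)) ^ (1 / (2 : ℝ)) := hholder
    _ = Real.sqrt (∑' n, ‖restr E n φ‖ ^ 2) * ‖x‖ := by rw [e1, e2]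

/-- the dual of the `ℓ_2`-sum is isometrically the `ℓ_2`-sum of the duals -/
lemma dual_hasSum_sq (φ : StrongDual ℝ (lp E 2)) :
    HasSum (fun n => ‖restr E n φ‖ ^ 2) (‖φ‖ ^ 2) := by
  have hs := summable_restr_sq E φ
  have h1 : ∑' n, ‖restr E n φ‖ ^ 2 ≤ ‖φ‖ ^ 2 :=
    hs.tsum_le_of_sum_le (fun F => sum_restr_sq_le E φ F)
  have h2 : ‖φ‖ ^ 2 ≤ ∑' n, ‖restr E n φ‖ ^ 2 := by
    have h3 := norm_le_sqrt_tsum_restr E φ
    have h4 : 0 ≤ ∑' n, ‖restr E n φ‖ ^ 2 := tsum_nonneg (fun n => by positivity)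
    calc ‖φ‖ ^ 2 ≤ (Real.sqrt (∑' n, ‖restr E n φ‖ ^ 2)) ^ 2 :=
          pow_le_pow_left₀ (norm_nonneg _) h3 2
      _ = ∑' n, ‖restr E n φ‖ ^ 2 := Real.sq_sqrt h4
  have h3 : ∑' n, ‖restr E n φ‖ ^ 2 = ‖φ‖ ^ 2 := le_antisymm h1 h2
  rw [← h3]
  exact hs.hasSum

/-- the dual of the `ℓ_2`-sum has cotype constant at most `C` if all the duals of the
summands have -/
theorem cotype_dual_lp {r C : ℝ} (hr : 2 ≤ r) (hC : 0 ≤ C)
    (hE : ∀ n, CotypeLe (StrongDual ℝ (E n)) r C) :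
    CotypeLe (StrongDual ℝ (lp E 2)) r C :=
  cotype_of_l2_decomp (fun n => restr E n) (dual_hasSum_sq E) hr hC hE

end Vale.Agent.Lib.P111
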