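import Vale.Agent.Lib.P111.Defs

namespace Vale.Agent.Lib.P111

/-- The `π`-property (bounded approximation property realized by projections): there is `lam`
such that for every compact set `M` and every `δ > 0` there is a bounded linear projection `P`
(`P ∘ P = P`) of finite rank with `‖P‖ ≤ lam` and `‖P x - x‖ < δ` for all `x ∈ M`. -/
def HasPiProperty (X : Type*) [NormedAddCommGroup X] [NormedSpace ℝ X] : Prop :=
  ∃ lam : ℝ, ∀ M : Set X, IsCompact M → ∀ δ : ℝ, 0 < δ →
    ∃ P : X →L[ℝ] X, FiniteDimensional ℝ (LinearMap.range (P : X →ₗ[ℝ] X)) ∧ P.comp P = P ∧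
      ‖P‖ ≤ lam ∧ ∀ x ∈ M, ‖P x - x‖ < δ

end Vale.Agent.Lib.P111
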