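import Vale.Agent.Lib.P111.PiProp

namespace Vale.Agent.Lib.P111

open scoped ENNReal
open Filter Topology

universe u

/-- the finite-dimensional uniform statement implies `K`-convexity of spaces with the
`π`-property whose cotype constants (for the space and its dual) are finite -/
theorem kconvex_of_pi_of_fd
    (hFD : ∀ q r C : ℝ, 2 ≤ q → 2 ≤ r → ∃ K : ℝ,
      ∀ (F : Type u) [NormedAddCommGroup F] [NormedSpace ℝ F] [FiniteDimensional ℝ F],
        CotypeLe F q C → CotypeLe (StrongDual ℝ F) r C → KConvexLe F K)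
    (X : Type u) [NormedAddCommGroup X] [NormedSpace ℝ X] (hpi : HasPiProperty X)
    (hq : ∃ q C : ℝ, 2 ≤ q ∧ CotypeLe X q C)
    (hr : ∃ r C : ℝ, 2 ≤ r ∧ CotypeLe (StrongDual ℝ X) r C) :
    ∃ K : ℝ, KConvexLe X K := by
  obtain ⟨lam, hlam⟩ := hpi
  obtain ⟨q, Cq, hq2, hXq⟩ := hq
  obtain ⟨r, Cr, hr2, hXr⟩ := hr
  have hlam0 : 0 ≤ lam := by
    obtain ⟨P, -, -, hP, -⟩ := hlam ∅ isCompact_empty 1 one_pos
    exact (norm_nonneg P).trans hP
  set Cr' : ℝ := max Cr 0 with hCr'
  set C : ℝ := max (max Cq 0) (Cr' * lam) with hC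
  have hXq' : CotypeLe X q C := hXq.mono ((le_max_left _ _).trans (le_max_left _ _))
  have hXr' : CotypeLe (StrongDual ℝ X) r Cr' := hXr.mono (le_max_left _ _)
  obtain ⟨K₀, hK₀⟩ := hFD q r C hq2 hr2
  set K₀' : ℝ := max K₀ 0 with hK₀'
  refine ⟨K₀' * lam, ?_⟩
  intro s f
  apply le_of_forall_pos_le_add
  intro η hη
  set δ : ℝ := η / (s + 1) with hδdef
  have hs1 : (0 : ℝ) < (s : ℝ) + 1 := by positivity
  have hδ : 0 < δ := div_pos hη hs1
  have hsδ : (s : ℝ) * δ ≤ η := by
    rw [hδdef, ← mul_div_assoc, div_le_iff₀ hs1]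
    nlinarith
  obtain ⟨P, hfin, hPP, hPn, hPclose⟩ := hlam (Set.range f) (Set.finite_range f).isCompact δ hδ
  -- the finite-dimensional range of the projection
  set F : Submodule ℝ X := LinearMap.range (P : X →ₗ[ℝ] X) with hF
  have hFfin : FiniteDimensional ℝ F := hfin
  set P' : X →L[ℝ] F := P.codRestrict F (fun x => LinearMap.mem_range_self _ x) with hP'
  have hP'coe : ∀ x, ((P' x : F) : X) = P x := fun x => rfl
  have hfix : ∀ v : F, P' (v : X) = v := by
    intro v
    apply Subtype.ext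
    rw [hP'coe]
    obtain ⟨w, hw⟩ := v.2
    have hw' : P w = (v : X) := hw
    rw [← hw']
    change (P.comp P) w = P w
    rw [hPP]
  have hP'le : ∀ x, ‖P' x‖ ≤ lam * ‖x‖ := by
    intro x
    have h1 : ‖P' x‖ = ‖P x‖ := rfl
    rw [h1]
    exact (P.le_opNorm x).trans (mul_le_mul_of_nonneg_right hPn (norm_nonneg _))
  -- cotype of the range
  have hFq : CotypeLe F q C := cotypeLe_of_isometry F.subtype (fun v => rfl) hXq'
  -- cotype of the dual of the range
  let J : StrongDual ℝ F →ₗ[ℝ] StrongDual ℝ X :=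
    { toFun := fun φ => φ.comp P'
      map_add' := fun φ ψ => by ext; simp
      map_smul' := fun c φ => by ext; simp }
  have hJapp : ∀ (φ : StrongDual ℝ F) (x : X), J φ x = φ (P' x) := fun φ x => rfl
  have hJ1 : ∀ φ : StrongDual ℝ F, ‖φ‖ ≤ ‖J φ‖ := by
    intro φ
    apply ContinuousLinearMap.opNorm_le_bound _ (norm_nonneg _)
    intro v
    have h1 : φ v = J φ (v : X) := by rw [hJapp, hfix]
    rw [h1]
    exact (J φ).le_opNorm (v : X)
  have hJ2 : ∀ φ : StrongDual ℝ F, ‖J φ‖ ≤ lam * ‖φ‖ := by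
    intro φ
    refine ContinuousLinearMap.opNorm_le_bound _ (mul_nonneg hlam0 (norm_nonneg φ)) ?_
    intro x
    rw [hJapp]
    calc ‖φ (P' x)‖ ≤ ‖φ‖ * ‖P' x‖ := φ.le_opNorm _
      _ ≤ ‖φ‖ * (lam * ‖x‖) := by gcongr; exact hP'le x
      _ = lam * ‖φ‖ * ‖x‖ := by ring
  have hFr : CotypeLe (StrongDual ℝ F) r C :=
    (cotypeLe_of_embedding J hlam0 hJ1 hJ2 hr2 (le_max_right _ _) hXr').mono (le_max_right _ _)
  have hKF : KConvexLe F K₀' := (hK₀ F hFq hFr).mono (le_max_left _ _)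
  -- apply K-convexity of the range to the projected function
  set g : (Fin s → Bool) → F := fun ε => P' (f ε) with hg
  have hg1 := hKF s g
  have hgl2 : Real.sqrt (l2Sq g) ≤ lam * Real.sqrt (l2Sq f) := by
    have h1 : l2Sq g ≤ lam ^ 2 * l2Sq f := by
      unfold l2Sq
      rw [← mul_div_assoc, Finset.mul_sum]
      apply div_le_div_of_nonneg_right _ (by positivity)
      apply Finset.sum_le_sum
      intro ε _
      rw [← mul_pow]
      exact pow_le_pow_left₀ (norm_nonneg _) (hP'le (f ε)) 2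
    calc Real.sqrt (l2Sq g) ≤ Real.sqrt (lam ^ 2 * l2Sq f) := Real.sqrt_le_sqrt h1
      _ = lam * Real.sqrt (l2Sq f) := by
          rw [Real.sqrt_mul (by positivity), Real.sqrt_sq hlam0]
  have hPf : l2Sq (radProj (fun ε => P (f ε))) = l2Sq (radProj g) := by
    have h1 : radProj (fun ε => P (f ε)) = fun ε => ((radProj g ε : F) : X) := by
      funext ε
      simp only [radProj, Submodule.coe_sum, Submodule.coe_smul]
      rfl
    rw [h1]
    rfl
  -- the remainder
  set h : (Fin s → Bool) → X := fun ε => f ε - P (f ε) with hh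
  have hhδ : ∀ ε, ‖h ε‖ ≤ δ := by
    intro ε
    have := hPclose (f ε) (Set.mem_range_self ε)
    rw [hh]
    simp only
    rw [norm_sub_rev]
    exact this.le
  have hrem := sqrt_l2Sq_radProj_le h hδ.le hhδ
  have hsplit : radProj f = fun ε => radProj (fun ε => P (f ε)) ε + radProj h ε := by
    rw [← radProj_add]
    congr 1
    funext ε
    rw [hh]
    simp
  have K₀'nn : 0 ≤ K₀' := le_max_right _ _
  calc Real.sqrt (l2Sq (radProj f))
      = Real.sqrt (l2Sq (fun ε => radProj (fun ε => P (f ε)) ε + radProj h ε)) := by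
        rw [← hsplit]
    _ ≤ Real.sqrt (l2Sq (radProj (fun ε => P (f ε)))) + Real.sqrt (l2Sq (radProj h)) :=
        sqrt_l2Sq_add_le _ _
    _ ≤ K₀' * Real.sqrt (l2Sq g) + s * δ := by
        rw [hPf]
        exact add_le_add hg1 hrem
    _ ≤ K₀' * (lam * Real.sqrt (l2Sq f)) + η := by
        gcongr
    _ = K₀' * lam * Real.sqrt (l2Sq f) + η := by ring

/-- The cotype-cotype statement for Banach spaces with the `π`-property is equivalent to a
uniform bound for finite-dimensional spaces. -/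
theorem pi_equivalence :
    (∀ (X : Type u) [NormedAddCommGroup X] [NormedSpace ℝ X] [CompleteSpace X],
      HasPiProperty X → (∃ q C : ℝ, 2 ≤ q ∧ CotypeLe X q C) →
      (∃ r C : ℝ, 2 ≤ r ∧ CotypeLe (StrongDual ℝ X) r C) → ∃ K : ℝ, KConvexLe X K) ↔
    (∀ q r C : ℝ, 2 ≤ q → 2 ≤ r → ∃ K : ℝ,
      ∀ (F : Type u) [NormedAddCommGroup F] [NormedSpace ℝ F] [FiniteDimensional ℝ F],
        CotypeLe F q C → CotypeLe (StrongDual ℝ F) r C → KConvexLe F K) := by
  constructor
  · intro hconj q r C hq hr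
    by_contra hcon
    push Not at hcon
    have h' := fun n : ℕ => hcon (n : ℝ)
    choose F i1 i2 i3 hF1 hF2 hF3 using h'
    have i4 : ∀ n, CompleteSpace (F n) := fun n => FiniteDimensional.complete ℝ (F n)
    have hK : ∀ K : ℝ, ∃ n, ¬ KConvexLe (F n) K := by
      intro K
      obtain ⟨n, hn⟩ := exists_nat_ge K
      exact ⟨n, fun h => hF3 n (h.mono hn)⟩
    obtain ⟨-, hc1, hc2, hnot⟩ := l2sum_counterexample' F hq hr hF1 hF2 hK
    exact hnot (hconj (lp F 2) (hasPi_lp F) ⟨q, C, hq, hc1⟩ ⟨r, C, hr, hc2⟩)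
  · intro hFD X _ _ _ hpi hq hr
    exact kconvex_of_pi_of_fd hFD X hpi hq hr

end Vale.Agent.Lib.P111
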