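import Vale.Agent.Lib.P111.Final
import Vale.Agent.Lib.P111.PiDefs

namespace Vale.Agent.Lib.P111

open scoped ENNReal
open Filter Topology

universe u

lemma HasPiProperty.hasBAP {X : Type*} [NormedAddCommGroup X] [NormedSpace ℝ X]
    (h : HasPiProperty X) : HasBAP X := by
  obtain ⟨lam, hlam⟩ := h
  refine ⟨lam, fun M hM δ hδ => ?_⟩
  obtain ⟨P, h1, -, h3, h4⟩ := hlam M hM δ hδ
  exact ⟨P, h1, h3, h4⟩

section lpPi

variable (E : ℕ → Type u) [∀ n, NormedAddCommGroup (E n)] [∀ n, NormedSpace ℝ (E n)]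

lemma trunc_coord (N : ℕ) (x : lp E 2) (n : ℕ) :
    (trunc E N x) n = if n < N then x n else 0 := by
  rw [trunc_apply, lp.coeFn_sum, Finset.sum_apply]
  split_ifs with h
  · rw [Finset.sum_eq_single n]
    · exact lp.single_apply_self 2 n (x n)
    · intro m _ hmn
      exact lp.single_apply_ne 2 m (x m) (Ne.symm hmn)
    · intro hn
      exact absurd (Finset.mem_range.2 h) hn
  · apply Finset.sum_eq_zero
    intro m hm
    have hmn : n ≠ m := by
      rintro rfl
      exact h (Finset.mem_range.1 hm)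
    exact lp.single_apply_ne 2 m (x m) hmn

lemma trunc_trunc (N : ℕ) : (trunc E N).comp (trunc E N) = trunc E N := by
  ext x n
  rw [ContinuousLinearMap.comp_apply, trunc_coord, trunc_coord]
  split_ifs <;> rfl

/-- the `ℓ_2`-sum of finite-dimensional spaces has the `π`-property -/
theorem hasPi_lp [∀ n, FiniteDimensional ℝ (E n)] : HasPiProperty (lp E 2) := by
  refine ⟨1, ?_⟩
  intro M hM δ hδ
  obtain ⟨t, -, htfin, hcover⟩ := hM.finite_cover_balls (e := δ / 3) (by linarith)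
  have hev : ∀ᶠ N in atTop, ∀ x ∈ t, ‖trunc E N x - x‖ < δ / 3 := by
    rw [Filter.eventually_all_finite htfin]
    intro x _
    have h := tendsto_trunc E x
    rw [Metric.tendsto_nhds] at h
    have h2 := h (δ / 3) (by linarith)
    simpa [dist_eq_norm] using h2
  obtain ⟨N, hN⟩ := hev.exists
  refine ⟨trunc E N, finrank_trunc E N, trunc_trunc E N, norm_trunc_le E N, ?_⟩
  intro x hx
  have hx' := hcover hx
  simp only [Set.mem_iUnion, Metric.mem_ball, exists_prop] at hx'
  obtain ⟨z, hzt, hxz⟩ := hx'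
  rw [dist_eq_norm] at hxz
  have h1 : trunc E N x - x = trunc E N (x - z) + (trunc E N z - z) + (z - x) := by
    rw [map_sub]
    abel
  have h2 : ‖trunc E N (x - z)‖ ≤ ‖x - z‖ := norm_trunc_apply_le E N (x - z)
  have h3 : ‖z - x‖ = ‖x - z‖ := norm_sub_rev z x
  calc ‖trunc E N x - x‖ = ‖trunc E N (x - z) + (trunc E N z - z) + (z - x)‖ := by rw [h1]
    _ ≤ ‖trunc E N (x - z)‖ + ‖trunc E N z - z‖ + ‖z - x‖ := norm_add₃_le
    _ < δ := by
        have := hN z hzt
        linarith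

end lpPi

/-- cotype constants pass to isometrically embedded subspaces -/
theorem cotypeLe_of_isometry {X F : Type*} [NormedAddCommGroup X] [NormedSpace ℝ X]
    [NormedAddCommGroup F] [NormedSpace ℝ F] (ι : F →ₗ[ℝ] X) (hι : ∀ v, ‖ι v‖ = ‖v‖)
    {q C : ℝ} (h : CotypeLe X q C) : CotypeLe F q C := by
  intro s y
  have h1 := h s (fun i => ι (y i))
  have h2 : radSq (fun i => ι (y i)) = radSq y := by
    unfold radSq
    congr 1
    apply Finset.sum_congr rfl
    intro ε _
    rw [← hι (∑ i, sgn (ε i) • y i)]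
    simp only [map_sum, map_smul]
  simp only [hι] at h1
  rw [h2] at h1
  exact h1

/-- cotype constants pass through a linear embedding `J` with `‖a‖ ≤ ‖J a‖ ≤ lam * ‖a‖` -/
theorem cotypeLe_of_embedding {A B : Type*} [NormedAddCommGroup A] [NormedSpace ℝ A]
    [NormedAddCommGroup B] [NormedSpace ℝ B] (J : A →ₗ[ℝ] B) {lam : ℝ} (hlam : 0 ≤ lam)
    (h1 : ∀ a, ‖a‖ ≤ ‖J a‖) (h2 : ∀ a, ‖J a‖ ≤ lam * ‖a‖) {r C : ℝ} (hr : 2 ≤ r) (hC : 0 ≤ C)
    (hB : CotypeLe B r C) : CotypeLe A r (C * lam) := by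
  intro s a
  have hr0 : 0 < r := by linarith
  have hB' := hB s (fun i => J (a i))
  have hmono : (∑ i, ‖a i‖ ^ r) ^ (1 / r) ≤ (∑ i, ‖J (a i)‖ ^ r) ^ (1 / r) := by
    apply Real.rpow_le_rpow
    · exact Finset.sum_nonneg (fun i _ => Real.rpow_nonneg (norm_nonneg _) _)
    · apply Finset.sum_le_sum
      intro i _
      exact Real.rpow_le_rpow (norm_nonneg _) (h1 (a i)) hr0.le
    · positivity
  have hrad : radSq (fun i => J (a i)) ≤ lam ^ 2 * radSq a := by
    unfold radSq
    rw [← mul_div_assoc, Finset.mul_sum]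
    apply div_le_div_of_nonneg_right _ (by positivity)
    apply Finset.sum_le_sum
    intro ε _
    have h3 : ∑ i, sgn (ε i) • J (a i) = J (∑ i, sgn (ε i) • a i) := by
      simp only [map_sum, map_smul]
    rw [h3, ← mul_pow]
    exact pow_le_pow_left₀ (norm_nonneg _) (h2 _) 2
  have hsq : Real.sqrt (radSq (fun i => J (a i))) ≤ lam * Real.sqrt (radSq a) := by
    calc Real.sqrt (radSq (fun i => J (a i))) ≤ Real.sqrt (lam ^ 2 * radSq a) :=
          Real.sqrt_le_sqrt hrad
      _ = lam * Real.sqrt (radSq a) := by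
          rw [Real.sqrt_mul (by positivity), Real.sqrt_sq hlam]
  calc (∑ i, ‖a i‖ ^ r) ^ (1 / r) ≤ (∑ i, ‖J (a i)‖ ^ r) ^ (1 / r) := hmono
    _ ≤ C * Real.sqrt (radSq (fun i => J (a i))) := hB'
    _ ≤ C * (lam * Real.sqrt (radSq a)) := by gcongr
    _ = C * lam * Real.sqrt (radSq a) := by ring

lemma l2Sq_nonneg {X : Type*} [NormedAddCommGroup X] [NormedSpace ℝ X] {s : ℕ}
    (f : (Fin s → Bool) → X) : 0 ≤ l2Sq f := by
  unfold l2Sq
  positivity

/-- triangle inequality for the `L_2` norm -/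
lemma sqrt_l2Sq_add_le {X : Type*} [NormedAddCommGroup X] [NormedSpace ℝ X] {s : ℕ}
    (f g : (Fin s → Bool) → X) :
    Real.sqrt (l2Sq (fun ε => f ε + g ε)) ≤ Real.sqrt (l2Sq f) + Real.sqrt (l2Sq g) := by
  have hpos : (0 : ℝ) < 2 ^ s := by positivity
  have key : Real.sqrt (∑ ε : Fin s → Bool, ‖f ε + g ε‖ ^ 2)
      ≤ Real.sqrt (∑ ε : Fin s → Bool, ‖f ε‖ ^ 2) + Real.sqrt (∑ ε : Fin s → Bool, ‖g ε‖ ^ 2) := by
    have hm := Real.Lp_add_le (Finset.univ : Finset (Fin s → Bool)) (fun ε => ‖f ε‖)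
      (fun ε => ‖g ε‖) (p := 2) (by norm_num)
    simp only [abs_of_nonneg (norm_nonneg _), abs_of_nonneg (add_nonneg (norm_nonneg _)
      (norm_nonneg _)), Real.rpow_two, ← Real.sqrt_eq_rpow] at hm
    refine le_trans (Real.sqrt_le_sqrt ?_) hm
    apply Finset.sum_le_sum
    intro ε _
    exact pow_le_pow_left₀ (norm_nonneg _) (norm_add_le _ _) 2
  unfold l2Sq
  rw [Real.sqrt_div' _ hpos.le, Real.sqrt_div' _ hpos.le, Real.sqrt_div' _ hpos.le, ← add_div]
  exact div_le_div_of_nonneg_right key (Real.sqrt_nonneg _)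

lemma radProj_add {X : Type*} [NormedAddCommGroup X] [NormedSpace ℝ X] {s : ℕ}
    (f g : (Fin s → Bool) → X) :
    radProj (fun ε => f ε + g ε) = fun ε => radProj f ε + radProj g ε := by
  funext ε
  simp only [radProj, smul_add, Finset.sum_add_distrib]

lemma abs_sgn (b : Bool) : |sgn b| = 1 := by
  unfold sgn
  split_ifs <;> simp

/-- crude bound: the Rademacher projection of a uniformly small function is small -/
lemma sqrt_l2Sq_radProj_le {X : Type*} [NormedAddCommGroup X] [NormedSpace ℝ X] {s : ℕ}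
    (h : (Fin s → Bool) → X) {δ : ℝ} (hδ : 0 ≤ δ) (hh : ∀ ε, ‖h ε‖ ≤ δ) :
    Real.sqrt (l2Sq (radProj h)) ≤ s * δ := by
  have hpos : (0 : ℝ) < 2 ^ s := by positivity
  have hpt : ∀ ε, ‖radProj h ε‖ ≤ s * δ := by
    intro ε
    unfold radProj
    calc ‖∑ i, sgn (ε i) • (((2 : ℝ) ^ s)⁻¹ • ∑ η : Fin s → Bool, sgn (η i) • h η)‖
        ≤ ∑ i : Fin s, ‖sgn (ε i) • (((2 : ℝ) ^ s)⁻¹ • ∑ η : Fin s → Bool, sgn (η i) • h η)‖ :=
          norm_sum_le _ _
      _ ≤ ∑ _i : Fin s, δ := by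
          apply Finset.sum_le_sum
          intro i _
          rw [norm_smul, norm_smul, Real.norm_eq_abs, abs_sgn, one_mul, Real.norm_of_nonneg
            (by positivity)]
          have h1 : ‖∑ η : Fin s → Bool, sgn (η i) • h η‖ ≤ ∑ _η : Fin s → Bool, δ := by
            refine (norm_sum_le _ _).trans (Finset.sum_le_sum ?_)
            intro η _
            rw [norm_smul, Real.norm_eq_abs, abs_sgn, one_mul]
            exact hh η
          rw [Finset.sum_const, Finset.card_univ, Fintype.card_fun, Fintype.card_bool,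
            Fintype.card_fin, nsmul_eq_mul] at h1
          push_cast at h1
          rw [inv_mul_le_iff₀ hpos]
          exact h1
      _ = s * δ := by
          rw [Finset.sum_const, Finset.card_univ, Fintype.card_fin, nsmul_eq_mul]
  have hsδ : 0 ≤ (s : ℝ) * δ := by positivity
  have h1 : l2Sq (radProj h) ≤ (s * δ) ^ 2 := by
    unfold l2Sq
    rw [div_le_iff₀ hpos]
    calc ∑ ε : Fin s → Bool, ‖radProj h ε‖ ^ 2 ≤ ∑ _ε : Fin s → Bool, (s * δ) ^ 2 :=
          Finset.sum_le_sum (fun ε _ => pow_le_pow_left₀ (norm_nonneg _) (hpt ε) 2)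
      _ = (s * δ) ^ 2 * 2 ^ s := by
          rw [Finset.sum_const, Finset.card_univ, Fintype.card_fun, Fintype.card_bool,
            Fintype.card_fin, nsmul_eq_mul]
          push_cast
          ring
  calc Real.sqrt (l2Sq (radProj h)) ≤ Real.sqrt ((s * δ) ^ 2) := Real.sqrt_le_sqrt h1
    _ = s * δ := Real.sqrt_sq hsδ

end Vale.Agent.Lib.P111
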